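import Mathlib

/-!
# Combinatorics of the word `s : ℤ → ℕ` (block G, line X)

Indices increase outward, `I_l = [l - s_l, l - 1]`, and `m l k` is the multiplicity of the curve
`C_k` in the divisor `D_l = C_l + ∑_{j ∈ I_l} D_j`.
-/

namespace Vale.Agent.P267.H781

/-- the interval `I_l = [l - s_l, l - 1]` -/
noncomputable def Iv (s : ℤ → ℕ) (l : ℤ) : Finset ℤ := Finset.Icc (l - s l) (l - 1)

theorem mem_Iv {s : ℤ → ℕ} {l j : ℤ} : j ∈ Iv s l ↔ l - s l ≤ j ∧ j ≤ l - 1 := Finset.mem_Icc

/-- the words which satisfy the positivity of the intersection numbers `C_l . C_j` -/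
structure Word (s : ℤ → ℕ) : Prop where
  one_le : ∀ l, 1 ≤ s l
  unit : ∀ l j : ℤ, l - s l + 2 ≤ j → j ≤ l - 1 → s j = 1

theorem Word.of_card {s : ℤ → ℕ} (h1 : ∀ l, 1 ≤ s l)
    (hpos : ∀ l j, j < l → (Iv s l ∩ Iv s j).card ≤ if j ∈ Iv s l then 1 else 0) : Word s := by
  refine ⟨h1, fun l j h h' => ?_⟩
  have hj : j ∈ Iv s l := mem_Iv.2 ⟨by omega, h'⟩
  have h0 := hpos l j (by omega)
  rw [if_pos hj] at h0
  by_contra hne
  have h2 : 2 ≤ s j := by have := h1 j; omega
  have hsub : ({j - 1, j - 2} : Finset ℤ) ⊆ Iv s l ∩ Iv s j := by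
    intro x hx
    simp only [Finset.mem_insert, Finset.mem_singleton] at hx
    rw [Finset.mem_inter, mem_Iv, mem_Iv]
    omega
  have h3 := Finset.card_le_card hsub
  rw [Finset.card_pair (by omega)] at h3
  omega

/-- version with the symmetric positivity hypothesis of `Ord.lean` -/
theorem Word.of_card' {s : ℤ → ℕ} (h1 : ∀ l, 1 ≤ s l)
    (hpos : ∀ l j, l ≠ j → (Iv s l ∩ Iv s j).card ≤
      (if j ∈ Iv s l then 1 else 0) + (if l ∈ Iv s j then 1 else 0)) : Word s := by
  refine Word.of_card h1 fun l j hlt => ?_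
  have h := hpos l j (by omega)
  have h2 : l ∉ Iv s j := fun h => by rw [mem_Iv] at h; omega
  rwa [if_neg h2, add_zero] at h

namespace Word

variable {s : ℤ → ℕ} (h : Word s)

include h

theorem pred_mem (i : ℤ) : i ∈ Iv s (i + 1) := by
  have := h.one_le (i + 1)
  rw [mem_Iv]; omega

/-- the classes strictly between `i + 1` and a second parent of `i` have `s = 1` -/
theorem s_eq_one {i q j : ℤ} (hq : i ∈ Iv s q) (h1 : i + 2 ≤ j) (h2 : j ≤ q - 1) : s j = 1 := by
  rw [mem_Iv] at hq
  exact h.unit q j (by omega) h2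

omit h in
theorem two_le {i q : ℤ} (hq : i ∈ Iv s q) (h1 : i + 2 ≤ q) : 2 ≤ s q := by
  rw [mem_Iv] at hq; omega

/-- the second parent is unique -/
theorem parent_unique {i q q' : ℤ} (hq : i ∈ Iv s q) (h1 : i + 2 ≤ q) (hq' : i ∈ Iv s q')
    (h1' : i + 2 ≤ q') : q = q' := by
  rcases lt_trichotomy q q' with hlt | heq | hgt
  · have := h.s_eq_one hq' h1 (by omega)
    have := two_le hq h1
    omega
  · exact heq
  · have := h.s_eq_one hq h1' (by omega)
    have := two_le hq' h1'
    omega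

/-- **`|U_i| ≤ 2`** -/
theorem parents (i : ℤ) : (∀ l, i ∈ Iv s l ↔ l = i + 1) ∨
    ∃ q, i + 2 ≤ q ∧ ∀ l, i ∈ Iv s l ↔ (l = i + 1 ∨ l = q) := by
  by_cases hex : ∃ q, i + 2 ≤ q ∧ i ∈ Iv s q
  · obtain ⟨q, hq, hiq⟩ := hex
    refine Or.inr ⟨q, hq, fun l => ⟨fun hl => ?_, ?_⟩⟩
    · by_cases h2 : i + 2 ≤ l
      · exact Or.inr (h.parent_unique hl h2 hiq hq)
      · rw [mem_Iv] at hl
        exact Or.inl (by omega)
    · rintro (rfl | rfl)
      · exact h.pred_mem i
      · exact hiq
  · refine Or.inl fun l => ⟨fun hl => ?_, ?_⟩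
    · by_contra hne
      refine hex ⟨l, ?_, hl⟩
      rw [mem_Iv] at hl
      omega
    · rintro rfl
      exact h.pred_mem i

/-- If `q` is the second parent of `i` then `I_q ∩ I_{i+1} = {i}`. -/
theorem inter_parent {i q : ℤ} (hq : i ∈ Iv s q) (h1 : i + 2 ≤ q) :
    Iv s q ∩ Iv s (i + 1) = {i} := by
  ext x
  rw [Finset.mem_inter, Finset.mem_singleton]
  constructor
  · rintro ⟨hx, hx'⟩
    rw [mem_Iv] at hx hx' hq
    by_contra hne
    have h2 : s (i + 1) = 1 := h.unit q (i + 1) (by omega) (by omega)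
    rw [h2] at hx'
    push_cast at hx'
    omega
  · rintro rfl
    exact ⟨hq, h.pred_mem x⟩

/-- `C_l . C_j` for `j < l` -/
theorem inter_number {l j : ℤ} (hlt : j < l) :
    (if j ∈ Iv s l then (1 : ℤ) else 0) - ((Iv s l ∩ Iv s j).card : ℤ)
      = if j = l - s l then 1 else 0 := by
  have h1 := h.one_le l
  have h2 := h.one_le j
  have hcard : ((Iv s l ∩ Iv s j).card : ℤ) = max (j - max (l - (s l : ℤ)) (j - s j)) 0 := by
    have h3 : Iv s l ∩ Iv s j = Finset.Icc (max (l - (s l : ℤ)) (j - s j)) (j - 1) := by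
      ext x
      rw [Finset.mem_inter, mem_Iv, mem_Iv, Finset.mem_Icc]
      omega
    rw [h3, Int.card_Icc]
    omega
  rw [hcard]
  by_cases h3 : l - s l + 2 ≤ j
  · have h4 := h.unit l j h3 (by omega)
    rw [if_pos (mem_Iv.2 ⟨by omega, by omega⟩), if_neg (by omega), h4]
    push_cast
    omega
  · by_cases h5 : j ∈ Iv s l
    · rw [if_pos h5]
      rw [mem_Iv] at h5
      by_cases h6 : j = l - s l
      · rw [if_pos h6]; omega
      · rw [if_neg h6]; omega
    · rw [if_neg h5]
      rw [mem_Iv] at h5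
      rw [if_neg (by omega)]
      omega

end Word

/-- In case A, `I_l ⊆ (i, ∞)` for `l > i + 1`. -/
theorem lt_of_caseA {s : ℤ → ℕ} {i : ℤ} (hA : ∀ l, i ∈ Iv s l → l = i + 1)
    {l j : ℤ} (hl : i + 1 < l) (hj : j ∈ Iv s l) : i < j := by
  by_contra hlt
  have : i ∈ Iv s l := by
    rw [mem_Iv] at hj ⊢; omega
  have := hA l this
  omega

/-- In case B, `I_l ⊆ (i, ∞)` for `l > i + 1`, `l ≠ q`. -/
theorem lt_of_caseB {s : ℤ → ℕ} {i q : ℤ}
    (hB : ∀ l, i ∈ Iv s l → (l = i + 1 ∨ l = q)) {l j : ℤ} (hl : i + 1 < l) (hlq : l ≠ q)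
    (hj : j ∈ Iv s l) : i < j := by
  by_contra hlt
  have : i ∈ Iv s l := by
    rw [mem_Iv] at hj ⊢; omega
  rcases hB l this with h | h <;> omega

/-- `m l k` = multiplicity of `C_k` in `D_l` (= number of paths from `l` to `k`). -/
structure Mult (s : ℤ → ℕ) (m : ℤ → ℤ → ℕ) : Prop where
  zero : ∀ l k, l < k → m l k = 0
  step : ∀ l k, m l k = (if l = k then 1 else 0) + ∑ j ∈ Iv s l, m j k

/-- path counts, with fuel -/
noncomputable def muAux (s : ℤ → ℕ) : ℕ → ℤ → ℤ → ℕ
  | 0, l, k => if l = k then 1 else 0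
  | n + 1, l, k => (if l = k then 1 else 0) + ∑ j ∈ Iv s l, muAux s n j k

/-- number of paths from `l` to `k` -/
noncomputable def mu (s : ℤ → ℕ) (l k : ℤ) : ℕ := muAux s (l - k).toNat l k

theorem muAux_zero (s : ℤ → ℕ) (n : ℕ) {l k : ℤ} (h : l < k) : muAux s n l k = 0 := by
  induction n generalizing l with
  | zero => simp [muAux, h.ne]
  | succ n ih =>
    rw [muAux, if_neg h.ne, zero_add]
    refine Finset.sum_eq_zero fun j hj => ih ?_
    rw [mem_Iv] at hj; omega

theorem muAux_succ (s : ℤ → ℕ) (n : ℕ) {l k : ℤ} (h : l - k ≤ n) :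
    muAux s (n + 1) l k = muAux s n l k := by
  induction n generalizing l with
  | zero =>
    have h0 : ∑ j ∈ Iv s l, muAux s 0 j k = 0 := by
      refine Finset.sum_eq_zero fun j hj => muAux_zero s 0 ?_
      rw [mem_Iv] at hj; push_cast at h; omega
    rw [muAux.eq_2, h0, muAux, add_zero]
  | succ n ih =>
    rw [muAux, muAux]
    congr 1
    refine Finset.sum_congr rfl fun j hj => ih ?_
    rw [mem_Iv] at hj; push_cast at h; omega

theorem muAux_eq (s : ℤ → ℕ) {n n' : ℕ} (hn : n ≤ n') {l k : ℤ} (h : l - k ≤ n) :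
    muAux s n' l k = muAux s n l k := by
  induction hn with
  | refl => rfl
  | @step n' hn ih =>
    have hn2 : n ≤ n' := hn
    rw [Nat.succ_eq_add_one, muAux_succ s n' (by omega), ih]

theorem mu_mult (s : ℤ → ℕ) : Mult s (mu s) where
  zero l k hlt := muAux_zero s _ hlt
  step l k := by
    have h1 : mu s l k = muAux s ((l - k).toNat + 1) l k :=
      (muAux_eq s (Nat.le_succ _) (Int.self_le_toNat _)).symm
    rw [h1, muAux]
    congr 1
    refine Finset.sum_congr rfl fun j hj => ?_
    rw [mem_Iv] at hj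
    exact muAux_eq s (by omega) (Int.self_le_toNat _)

namespace Mult

variable {s : ℤ → ℕ} {m : ℤ → ℤ → ℕ}

/-- induction outward from `k` -/
theorem outward_induction {P : ℤ → Prop} (k : ℤ) (h0 : ∀ l, l < k → P l)
    (hs : ∀ l, k ≤ l → (∀ j, j < l → P j) → P l) : ∀ l, P l := by
  have key : ∀ n : ℕ, ∀ l, l < k + n → P l := by
    intro n
    induction n with
    | zero => intro l hl; exact h0 l (by simpa using hl)
    | succ n ih =>
      intro l hl
      by_cases hk : k ≤ l
      · exact hs l hk fun j hj => ih j (by push_cast at hl; omega)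
      · exact h0 l (by omega)
  intro l
  exact key ((l - k).toNat + 1) l (by omega)

theorem unique {m' : ℤ → ℤ → ℕ} (hm : Mult s m) (hm' : Mult s m') : m = m' := by
  funext l k
  refine outward_induction (P := fun l => m l k = m' l k) k
    (fun l hl => by rw [hm.zero l k hl, hm'.zero l k hl]) (fun l _ ih => ?_) l
  rw [hm.step, hm'.step]
  congr 1
  refine Finset.sum_congr rfl fun j hj => ih j ?_
  rw [mem_Iv] at hj; omega

variable (hm : Mult s m)

include hm

theorem sum_zero {l k : ℤ} (h : l ≤ k) : ∑ j ∈ Iv s l, m j k = 0 := by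
  refine Finset.sum_eq_zero fun j hj => hm.zero _ _ ?_
  rw [mem_Iv] at hj; omega

theorem self (l : ℤ) : m l l = 1 := by
  rw [hm.step, if_pos rfl, hm.sum_zero le_rfl]

theorem step_ne {l k : ℤ} (h : l ≠ k) : m l k = ∑ j ∈ Iv s l, m j k := by
  rw [hm.step, if_neg h, zero_add]

theorem le_succ (hw : Word s) (l k : ℤ) : m l k ≤ m (l + 1) k := by
  rw [hm.step (l + 1) k]
  have := Finset.single_le_sum (f := fun j => m j k) (fun j _ => Nat.zero_le _)
    (hw.pred_mem l)
  exact this.trans (Nat.le_add_left _ _)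

theorem mono (hw : Word s) {l l' : ℤ} (h : l ≤ l') (k : ℤ) : m l k ≤ m l' k := by
  obtain ⟨d, rfl⟩ := Int.le.dest h
  clear h
  induction d with
  | zero => simp
  | succ d ih =>
    refine ih.trans ?_
    rw [show l + ((d + 1 : ℕ) : ℤ) = (l + d) + 1 by push_cast; ring]
    exact hm.le_succ hw _ _

theorem one_le (hw : Word s) {l k : ℤ} (h : k ≤ l) : 1 ≤ m l k :=
  (hm.self k).symm.le.trans (hm.mono hw h k)

theorem pos_iff (hw : Word s) (l k : ℤ) : 0 < m l k ↔ k ≤ l := by
  constructor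
  · intro h
    by_contra hlt
    rw [hm.zero l k (by omega)] at h
    omega
  · intro h
    exact hm.one_le hw h

/-- last-step recursion -/
theorem last (l k : ℤ) : m l k = (if l = k then 1 else 0) +
    ∑ p ∈ (Finset.Ioc k l).filter (fun p => k ∈ Iv s p), m l p := by
  refine outward_induction (P := fun l => m l k = (if l = k then 1 else 0) +
    ∑ p ∈ (Finset.Ioc k l).filter (fun p => k ∈ Iv s p), m l p) k (fun l hl => ?_)
    (fun l hkl ih => ?_) l
  · rw [hm.zero l k hl, if_neg hl.ne, Finset.Ioc_eq_empty (by omega)]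
    simp
  · have h1 : ∑ p ∈ (Finset.Ioc k l).filter (fun p => k ∈ Iv s p), m l p
        = (if k ∈ Iv s l then 1 else 0)
          + ∑ j ∈ Iv s l, ∑ p ∈ (Finset.Ioc k l).filter (fun p => k ∈ Iv s p), m j p := by
      rw [Finset.sum_comm]
      have h2 : ∀ p ∈ (Finset.Ioc k l).filter (fun p => k ∈ Iv s p),
          m l p = (if l = p then 1 else 0) + ∑ j ∈ Iv s l, m j p := fun p _ => hm.step l p
      rw [Finset.sum_congr rfl h2, Finset.sum_add_distrib, Finset.sum_ite_eq]
      congr 1
      by_cases h3 : k ∈ Iv s l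
      · rw [if_pos h3, if_pos]
        rw [Finset.mem_filter, Finset.mem_Ioc]
        refine ⟨?_, h3⟩
        rw [mem_Iv] at h3; omega
      · rw [if_neg h3, if_neg]
        rw [Finset.mem_filter]
        exact fun h => h3 h.2
    rw [hm.step l k, h1, add_right_inj]
    have h4 : ∀ j ∈ Iv s l, m j k = (if j = k then 1 else 0)
        + ∑ p ∈ (Finset.Ioc k l).filter (fun p => k ∈ Iv s p), m j p := by
      intro j hj
      rw [mem_Iv] at hj
      rw [ih j (by omega), add_right_inj]
      refine Finset.sum_subset (fun p hp => ?_) (fun p hp hp' => ?_)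
      · rw [Finset.mem_filter, Finset.mem_Ioc] at hp ⊢
        exact ⟨⟨hp.1.1, by omega⟩, hp.2⟩
      · rw [Finset.mem_filter, Finset.mem_Ioc] at hp hp'
        refine hm.zero _ _ ?_
        by_contra h5
        exact hp' ⟨⟨hp.1.1, by omega⟩, hp.2⟩
    rw [Finset.sum_congr rfl h4, Finset.sum_add_distrib]
    congr 1
    rw [Finset.sum_ite_eq']

/-- translation invariance -/
theorem periodic {c : ℤ} (hc : ∀ l, s (l + c) = s l) (l k : ℤ) : m (l + c) (k + c) = m l k := by
  have h : Mult s (fun l k => m (l + c) (k + c)) := by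
    refine ⟨fun l k hlk => hm.zero _ _ (by omega), fun l k => ?_⟩
    show m (l + c) (k + c) = _
    rw [hm.step (l + c) (k + c)]
    congr 1
    · simp
    · have : Iv s (l + c) = (Iv s l).map (addRightEmbedding c) := by
        rw [Iv, Iv, hc, Finset.map_add_right_Icc]
        congr 1 <;> ring
      rw [this, Finset.sum_map]
      rfl
  have := hm.unique h
  exact (congrFun (congrFun this l) k).symm

/-- `Duhamel`: the solution of the recursion `A_l = ∑_{I_l} A_j + r_l` on `(i, ∞)` -/
theorem duhamel {V : Type*} [AddCommGroup V] (A : ℤ → V) (i l : ℤ) (hl : i < l) :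
    A l = ∑ p ∈ Finset.Ioc i l, m l p • (A p - ∑ j ∈ (Iv s p).filter (fun j => i < j), A j) := by
  set r : ℤ → V := fun p => A p - ∑ j ∈ (Iv s p).filter (fun j => i < j), A j with hr
  revert hl
  refine outward_induction (P := fun l => i < l → A l = ∑ p ∈ Finset.Ioc i l, m l p • r p) i
    (fun l hl h => by omega) (fun l hil ih hlt => ?_) l
  have h1 : ∑ p ∈ Finset.Ioc i l, m l p • r p
      = r l + ∑ j ∈ Iv s l, ∑ p ∈ Finset.Ioc i l, m j p • r p := by
    rw [Finset.sum_comm]
    have h2 : ∀ p ∈ Finset.Ioc i l, m l p • r p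
        = (if l = p then r p else 0) + ∑ j ∈ Iv s l, m j p • r p := by
      intro p _
      rw [hm.step l p, add_smul, Finset.sum_smul]
      congr 1
      split_ifs <;> simp
    rw [Finset.sum_congr rfl h2, Finset.sum_add_distrib, Finset.sum_ite_eq,
      if_pos (Finset.mem_Ioc.2 ⟨hlt, le_rfl⟩)]
  rw [h1, ← Finset.sum_filter_add_sum_filter_not (Iv s l) (fun j => i < j)]
  have h3 : ∑ j ∈ (Iv s l).filter (fun j => ¬ i < j), ∑ p ∈ Finset.Ioc i l, m j p • r p = 0 := by
    refine Finset.sum_eq_zero fun j hj => Finset.sum_eq_zero fun p hp => ?_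
    rw [Finset.mem_filter] at hj
    rw [Finset.mem_Ioc] at hp
    rw [hm.zero j p (by omega), zero_smul]
  have h4 : ∑ j ∈ (Iv s l).filter (fun j => i < j), ∑ p ∈ Finset.Ioc i l, m j p • r p
      = ∑ j ∈ (Iv s l).filter (fun j => i < j), A j := by
    refine Finset.sum_congr rfl fun j hj => ?_
    rw [Finset.mem_filter, mem_Iv] at hj
    rw [ih j (by omega) hj.2]
    symm
    refine Finset.sum_subset (fun p hp => ?_) (fun p hp hp' => ?_)
    · rw [Finset.mem_Ioc] at hp ⊢; omega
    · rw [Finset.mem_Ioc] at hp hp'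
      rw [hm.zero j p (by omega), zero_smul]
  rw [h3, h4, add_zero, hr]
  simp

/-- for `j ∈ I_l` the multiplicity of `C_{l - s_l}` in `D_j` is one -/
theorem eq_one (hw : Word s) {l j : ℤ} (hj : j ∈ Iv s l) : m j (l - s l) = 1 := by
  rw [mem_Iv] at hj
  obtain ⟨hj1, hj2⟩ := hj
  obtain ⟨d, rfl⟩ := Int.le.dest hj1
  clear hj1
  induction d with
  | zero => simpa using hm.self (l - s l)
  | succ d ih =>
    set k := l - (s l : ℤ) with hk
    have ih' := ih (by push_cast at hj2; omega)
    have hne : k + ((d + 1 : ℕ) : ℤ) ≠ k := by push_cast; omega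
    rw [hm.step_ne hne]
    rw [← Finset.sum_subset (s₁ := {k + (d : ℤ)})]
    · rw [Finset.sum_singleton, ih']
    · intro x hx
      rw [Finset.mem_singleton] at hx
      subst hx
      have := hw.one_le (k + ((d + 1 : ℕ) : ℤ))
      rw [mem_Iv]; push_cast; push_cast at this; omega
    · intro x hx hx'
      rw [Finset.mem_singleton] at hx'
      rw [mem_Iv] at hx
      by_cases hd : d = 0
      · subst hd
        refine hm.zero _ _ ?_
        push_cast at hx hx'
        omega
      · exfalso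
        have h1 := hw.unit l (k + ((d + 1 : ℕ) : ℤ)) (by push_cast; omega) hj2
        rw [h1] at hx
        push_cast at hx
        omega

/-- multiplicity of `C_{l - s_l}` in `D_l` -/
theorem eq_s (hw : Word s) (l : ℤ) : m l (l - s l) = s l := by
  have h1 := hw.one_le l
  rw [hm.step_ne (by omega), Finset.sum_congr rfl fun j hj => hm.eq_one hw hj]
  simp only [Finset.sum_const, smul_eq_mul, mul_one, Iv, Int.card_Icc]
  omega

/-- multiplicity of `C_{i+1-s_{i+1}}` in `∑_{j ≤ i} D_j` -/
theorem sum_eq_s (hw : Word s) (i : ℤ) :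
    ∑ j ∈ Finset.Icc (i + 1 - s (i + 1)) i, m j (i + 1 - s (i + 1)) = s (i + 1) := by
  have h1 : Finset.Icc (i + 1 - (s (i + 1) : ℤ)) i = Iv s (i + 1) := by
    rw [Iv]; congr 1; ring
  rw [h1, Finset.sum_congr rfl fun j hj => hm.eq_one hw hj]
  simp only [Finset.sum_const, smul_eq_mul, mul_one, Iv, Int.card_Icc]
  omega

/-- upper bound -/
theorem le_pow (hw : Word s) {S : ℕ} (hS : ∀ l, s l ≤ S) (l k : ℤ) :
    m l k ≤ S ^ (l - k).toNat := by
  have hS1 : 1 ≤ S := (hw.one_le 0).trans (hS 0)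
  refine outward_induction (P := fun l => m l k ≤ S ^ (l - k).toNat) k (fun l hl => ?_)
    (fun l hkl ih => ?_) l
  · rw [hm.zero l k hl]; exact Nat.zero_le _
  · rcases hkl.eq_or_lt with rfl | hlt
    · rw [hm.self]; exact Nat.one_le_pow _ _ hS1
    · rw [hm.step_ne hlt.ne']
      have h1 : ∀ j ∈ Iv s l, m j k ≤ S ^ (l - 1 - k).toNat := by
        intro j hj
        rw [mem_Iv] at hj
        exact (ih j (by omega)).trans (Nat.pow_le_pow_right hS1 (by omega))
      have h2 := Finset.sum_le_card_nsmul (Iv s l) (fun j => m j k) _ h1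
      refine h2.trans ?_
      have h3 : (Iv s l).card = s l := by
        rw [Iv, Int.card_Icc]; omega
      rw [h3, smul_eq_mul, show (l - k).toNat = (l - 1 - k).toNat + 1 by omega, pow_succ,
        mul_comm (S ^ _) S]
      exact Nat.mul_le_mul_right _ (hS l)

/-- the Enoki case -/
theorem eq_one_of_enoki (h1 : ∀ l, s l = 1) {l k : ℤ} (h : k ≤ l) : m l k = 1 := by
  obtain ⟨d, rfl⟩ := Int.le.dest h
  clear h
  induction d with
  | zero => simpa using hm.self k
  | succ d ih =>
    rw [hm.step_ne (by push_cast; omega)]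
    have : Iv s (k + ((d + 1 : ℕ) : ℤ)) = {k + (d : ℤ)} := by
      ext x
      rw [mem_Iv, h1, Finset.mem_singleton]
      push_cast; omega
    rw [this, Finset.sum_singleton, ih]

/-- otherwise the multiplicities are unbounded -/
theorem unbounded (hw : Word s) {n : ℕ} (hn : 1 ≤ n) (hper : ∀ l, s (l + n) = s l)
    {l₀ : ℤ} (h0 : 2 ≤ s l₀) (k : ℤ) (N : ℕ) : ∃ L, ∀ l, L ≤ l → N ≤ m l k := by
  have hper' : ∀ (t : ℕ) l, s (l + n * t) = s l := by
    intro t
    induction t with
    | zero => intro l; simp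
    | succ t ih =>
      intro l
      rw [show l + (n : ℤ) * ((t + 1 : ℕ) : ℤ) = (l + n * t) + n by push_cast; ring, hper, ih]
  induction N with
  | zero => exact ⟨0, fun l _ => Nat.zero_le _⟩
  | succ N ih =>
    obtain ⟨L, hL⟩ := ih
    -- an index `p ≥ max L k + 2` with `s p ≥ 2`
    obtain ⟨t, ht⟩ : ∃ t : ℕ, max L k + 2 ≤ l₀ + n * t := by
      refine ⟨(max L k + 2 - l₀).toNat, ?_⟩
      have h1 : max L k + 2 - l₀ ≤ ((max L k + 2 - l₀).toNat : ℤ) := Int.self_le_toNat _
      have h2 : ((max L k + 2 - l₀).toNat : ℤ) ≤ n * ((max L k + 2 - l₀).toNat : ℤ) := by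
        have : (1 : ℤ) ≤ n := by exact_mod_cast hn
        nlinarith [Int.natCast_nonneg (max L k + 2 - l₀).toNat]
      omega
    set p := l₀ + (n : ℤ) * t with hp
    refine ⟨p, fun l hl => le_trans ?_ (hm.mono hw hl k)⟩
    have hs : 2 ≤ s p := by rw [hp, hper']; exact h0
    have h3 : ({p - 1, p - 2} : Finset ℤ) ⊆ Iv s p := by
      intro x hx
      simp only [Finset.mem_insert, Finset.mem_singleton] at hx
      rw [mem_Iv]; omega
    have h4 := Finset.sum_le_sum_of_subset (f := fun j => m j k) h3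
    rw [Finset.sum_pair (by omega)] at h4
    have h5 := hL (p - 1) (by omega)
    have h6 := hm.one_le hw (l := p - 2) (k := k) (by omega)
    rw [hm.step p k]
    omega

/-! ### Case A -/

/-- **Case A**: `D_l = m_l D_{i+1}` along the curves `C_k`, `k ≤ i + 1`. -/
theorem caseA {i : ℤ} (hA : ∀ l, i ∈ Iv s l → l = i + 1) {l k : ℤ} (hl : i + 1 ≤ l)
    (hk : k ≤ i + 1) : m l k = m l (i + 1) * m (i + 1) k := by
  revert hl
  refine outward_induction (P := fun l => i + 1 ≤ l → m l k = m l (i + 1) * m (i + 1) k) (i + 1)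
    (fun l hl h => by omega) (fun l _ ih hl => ?_) l
  rcases hl.eq_or_lt with rfl | hlt
  · rw [hm.self, one_mul]
  · rw [hm.step_ne (k := k) (by omega), hm.step_ne (k := i + 1) (by omega), Finset.sum_mul]
    refine Finset.sum_congr rfl fun j hj => ?_
    have h1 := lt_of_caseA hA hlt hj
    rw [mem_Iv] at hj
    exact ih j (by omega) (by omega)

/-- Duhamel formula in case A -/
theorem duhamelA {V : Type*} [AddCommGroup V] {i : ℤ} (hA : ∀ l, i ∈ Iv s l → l = i + 1)
    (A r : ℤ → V) (hAr : ∀ l, i + 1 < l → A l = ∑ j ∈ Iv s l, A j + r l) {l : ℤ} (hl : i + 1 ≤ l) :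
    A l = m l (i + 1) • A (i + 1) + ∑ p ∈ Finset.Ioc (i + 1) l, m l p • r p := by
  have h1 := hm.duhamel A i l (by omega)
  have h2 : Finset.Ioc i l = insert (i + 1) (Finset.Ioc (i + 1) l) := by
    ext x
    rw [Finset.mem_insert, Finset.mem_Ioc, Finset.mem_Ioc]; omega
  rw [h2, Finset.sum_insert (by simp)] at h1
  rw [h1]
  congr 1
  · congr 1
    rw [Finset.filter_eq_empty_iff.2 (fun j hj => by rw [mem_Iv] at hj; omega), Finset.sum_empty,
      sub_zero]
  · refine Finset.sum_congr rfl fun p hp => ?_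
    rw [Finset.mem_Ioc] at hp
    rw [Finset.filter_true_of_mem (fun j hj => lt_of_caseA hA hp.1 hj), hAr p hp.1]
    congr 1
    abel

/-! ### Case B -/

/-- **Case B**: along the curves `C_k`, `k ≤ i` or `k = i + 1`, `k = q`, the divisor `D_l`, `l > i`,
is `m_{l,i+1} D_{i+1} + m_{l,q} (C_q + ∑_{j ∈ I_q, j ≤ i} D_j)`. -/
theorem caseB {i q : ℤ} (hq : i + 2 ≤ q) (hB : ∀ l, i ∈ Iv s l → (l = i + 1 ∨ l = q))
    {l k : ℤ} (hl : i < l) (hk : k ≤ i + 1 ∨ k = q) :
    m l k = m l (i + 1) * m (i + 1) k + m l q *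
      ((if k = q then 1 else 0) + ∑ j ∈ (Iv s q).filter (fun j => j ≤ i), m j k) := by
  set w : ℕ := (if k = q then 1 else 0) + ∑ j ∈ (Iv s q).filter (fun j => j ≤ i), m j k with hw
  revert hl
  refine outward_induction (P := fun l => i < l → m l k = m l (i + 1) * m (i + 1) k + m l q * w) i
    (fun l hl h => by omega) (fun l _ ih hl => ?_) l
  by_cases h1 : l = i + 1
  · subst h1
    rw [hm.self, one_mul, hm.zero (i + 1) q (by omega), zero_mul, add_zero]
  by_cases h2 : l = q
  · subst h2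
    rw [hm.self l, one_mul, hw, hm.step l k, hm.step_ne (k := i + 1) h1,
      ← Finset.sum_filter_add_sum_filter_not (Iv s l) (fun j => j ≤ i),
      ← Finset.sum_filter_add_sum_filter_not (Iv s l) (fun j => j ≤ i) (fun j => m j (i + 1))]
    have h3 : ∑ j ∈ (Iv s l).filter (fun j => j ≤ i), m j (i + 1) = 0 :=
      Finset.sum_eq_zero fun j hj => hm.zero _ _ (by rw [Finset.mem_filter] at hj; omega)
    have h4 : ∑ j ∈ (Iv s l).filter (fun j => ¬ j ≤ i), m j k
        = ∑ j ∈ (Iv s l).filter (fun j => ¬ j ≤ i), m j (i + 1) * m (i + 1) k := by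
      refine Finset.sum_congr rfl fun j hj => ?_
      rw [Finset.mem_filter, mem_Iv] at hj
      rw [ih j (by omega) (by omega), hm.zero j l (by omega), zero_mul, add_zero]
    rw [h3, h4, zero_add, ← Finset.sum_mul]
    have h5 : (if l = k then 1 else 0 : ℕ) = if k = l then 1 else 0 := by
      split_ifs <;> omega
    rw [h5]; ring
  · have hlt : i + 1 < l := by omega
    have h3 : l ≠ k := by rcases hk with h | h <;> omega
    rw [hm.step_ne h3, hm.step_ne h1, hm.step_ne h2, Finset.sum_mul, Finset.sum_mul,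
      ← Finset.sum_add_distrib]
    refine Finset.sum_congr rfl fun j hj => ?_
    have h4 := lt_of_caseB hB hlt h2 hj
    rw [mem_Iv] at hj
    exact ih j (by omega) h4

/-- Duhamel formula in case B -/
theorem duhamelB {V : Type*} [AddCommGroup V] {i q : ℤ} (hq : i + 2 ≤ q)
    (hB : ∀ l, i ∈ Iv s l → (l = i + 1 ∨ l = q))
    (A r : ℤ → V) (hAr : ∀ l, i + 1 < l → l ≠ q → A l = ∑ j ∈ Iv s l, A j + r l) {l : ℤ}
    (hl : q ≤ l) :
    A l = m l (i + 1) • A (i + 1)
      + m l q • (A q - ∑ j ∈ (Iv s q).filter (fun j => i < j), A j)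
      + ∑ p ∈ (Finset.Ioc (i + 1) l).erase q, m l p • r p := by
  have h1 := hm.duhamel A i l (by omega)
  have h2 : Finset.Ioc i l = insert (i + 1) (insert q ((Finset.Ioc (i + 1) l).erase q)) := by
    ext x
    rw [Finset.mem_insert, Finset.mem_insert, Finset.mem_erase, Finset.mem_Ioc, Finset.mem_Ioc]
    omega
  rw [h2, Finset.sum_insert (by simp; omega), Finset.sum_insert (by simp)] at h1
  rw [h1, ← add_assoc]
  congr 1
  · congr 1
    congr 1
    rw [Finset.filter_eq_empty_iff.2 (fun j hj => by rw [mem_Iv] at hj; omega), Finset.sum_empty,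
      sub_zero]
  · refine Finset.sum_congr rfl fun p hp => ?_
    rw [Finset.mem_erase, Finset.mem_Ioc] at hp
    rw [Finset.filter_true_of_mem (fun j hj => lt_of_caseB hB hp.2.1 hp.1 hj), hAr p hp.2.1 hp.1]
    congr 1
    abel

/-- a run of indices with `s = 1` -/
theorem run (a : ℤ) (d : ℕ) (hs : ∀ j, a < j → j ≤ a + d → s j = 1) {k : ℤ}
    (hk : ¬ (a < k ∧ k ≤ a + d)) : m (a + d) k = m a k := by
  induction d with
  | zero => simp
  | succ d ih =>
    have h1 := ih (fun j h1 h2 => hs j h1 (by push_cast; omega)) (by push_cast at hk; omega)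
    have h2 := hs (a + ((d + 1 : ℕ) : ℤ)) (by push_cast; omega) le_rfl
    rw [hm.step_ne (by push_cast at hk ⊢; omega)]
    have h3 : Iv s (a + ((d + 1 : ℕ) : ℤ)) = {a + (d : ℤ)} := by
      ext x
      rw [mem_Iv, h2, Finset.mem_singleton]
      push_cast; omega
    rw [h3, Finset.sum_singleton, h1]

theorem run' {a b : ℤ} (hab : a ≤ b) (hs : ∀ j, a < j → j ≤ b → s j = 1) {k : ℤ}
    (hk : ¬ (a < k ∧ k ≤ b)) : m b k = m a k := by
  obtain ⟨d, rfl⟩ := Int.le.dest hab
  exact hm.run a d hs hk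

/-- **Case B**: the exponent vectors `(m_{l,i+1}, m_{l,q})` of two suitable `l`, arbitrarily far
out, have determinant `±1`. -/
theorem det (hw : Word s) (hB : ∀ i, ∃ q, i + 2 ≤ q ∧ i ∈ Iv s q)
    {i q : ℤ} (hq : i + 2 ≤ q) (hiq : i ∈ Iv s q) :
    ∀ (d : ℕ) (q' : ℤ), i + d + 2 ≤ q' → i + d ∈ Iv s q' →
      ((m (i + d + 1) (i + 1) : ℤ) * m q' q - m (i + d + 1) q * m q' (i + 1) = 1 ∨
       (m (i + d + 1) (i + 1) : ℤ) * m q' q - m (i + d + 1) q * m q' (i + 1) = -1) := by
  intro d
  induction d with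
  | zero =>
    intro q' hq' hiq'
    simp only [Nat.cast_zero, add_zero] at hq' hiq' ⊢
    obtain rfl := hw.parent_unique hiq hq hiq' hq'
    left
    rw [hm.self, hm.self, hm.zero (i + 1) q (by omega)]
    norm_num
  | succ d ih =>
    intro q'' hq'' hiq''
    obtain ⟨q', hq', hiq'⟩ := hB (i + d)
    have ih' := ih q' hq' hiq'
    set i' := i + (d : ℤ) with hi'
    have hid : i + ((d + 1 : ℕ) : ℤ) = i' + 1 := by push_cast; ring
    rw [hid] at hq'' hiq'' ⊢
    have hs2q := Word.two_le hiq hq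
    by_cases hlt : i' + 3 ≤ q'
    · -- `q'' = q'`
      have h1 : i' + 1 ∈ Iv s q' := by rw [mem_Iv] at hiq' ⊢; omega
      obtain rfl := hw.parent_unique h1 (by omega) hiq'' hq''
      have hs1 : s (i' + 2) = 1 := hw.s_eq_one hiq' le_rfl (by omega)
      have hrun : ∀ k, k ≠ i' + 2 → m (i' + 1 + 1) k = m (i' + 1) k := by
        intro k hk
        refine hm.run' (by omega) (fun j h1 h2 => ?_) (by omega)
        obtain rfl : j = i' + 2 := by omega
        exact hs1
      have hqne : q ≠ i' + 2 := by rintro rfl; omega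
      rw [hrun (i + 1) (by omega), hrun q hqne]
      exact ih'
    · -- `q' = i' + 2`
      obtain rfl : q' = i' + 2 := by omega
      have h1 : Iv s q'' ∩ Iv s (i' + 1 + 1) = {i' + 1} := hw.inter_parent hiq'' (by omega)
      have h2 : i' ∉ Iv s q'' := by
        intro h
        have h3 : i' ∈ Iv s q'' ∩ Iv s (i' + 1 + 1) := by
          refine Finset.mem_inter.2 ⟨h, ?_⟩
          rw [show i' + 1 + 1 = i' + 2 by ring]
          exact hiq'
        rw [h1, Finset.mem_singleton] at h3
        omega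
      have h4 : Iv s q'' = insert (i' + 1) (Finset.Icc (i' + 2) (q'' - 1)) := by
        ext x
        rw [Finset.mem_insert, Finset.mem_Icc, mem_Iv]
        rw [mem_Iv] at h2 hiq''
        omega
      have hqne : q ≠ q'' := by
        rintro rfl
        apply h2
        rw [mem_Iv] at hiq hiq'' ⊢
        omega
      have hF : ∀ k, k ≠ q'' → (∀ j, i' + 3 ≤ j → j ≤ q'' - 1 → k ≠ j) →
          m q'' k = m (i' + 1) k + (q'' - i' - 2).toNat * m (i' + 2) k := by
        intro k hk hk2
        rw [hm.step_ne hk.symm, h4, Finset.sum_insert (by simp)]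
        congr 1
        have h5 : ∀ j ∈ Finset.Icc (i' + 2) (q'' - 1), m j k = m (i' + 2) k := by
          intro j hj
          rw [Finset.mem_Icc] at hj
          refine hm.run' hj.1 (fun j' h1 h2 => ?_) (fun h => ?_)
          · exact hw.s_eq_one hiq'' (by omega) (by omega)
          · exact hk2 k (by omega) (by omega) rfl
        rw [Finset.sum_congr rfl h5, Finset.sum_const, smul_eq_mul, Int.card_Icc]
        congr 1
        omega
      have hqrun : ∀ j, i' + 3 ≤ j → j ≤ q'' - 1 → q ≠ j := by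
        intro j hj1 hj2 hqj
        have := hw.s_eq_one hiq'' (j := j) (by omega) hj2
        rw [← hqj] at this
        omega
      have e1 := hF (i + 1) (by omega) (fun j _ _ => by omega)
      have e2 := hF q hqne hqrun
      rw [show i' + 1 + 1 = i' + 2 by ring, e1, e2]
      push_cast
      rcases ih' with h | h
      · right; linear_combination (-1 : ℤ) * h
      · left; linear_combination (-1 : ℤ) * h

end Mult

end Vale.Agent.P267.H781
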