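import Vale.Agent.P267.H781.Ord
import Vale.Agent.P267.H781.Comb

/-!
# The order theorem, packaged

Input: the set `B` of basis classes, the shift `T`, the finite sets `I b`, the multiplicities
`m b i` of `C_i` in `D_b`.  Output: an enumeration by `ℤ`.
-/

namespace Vale.Agent.P267.H781

section

variable {B : Type*} [DecidableEq B] {I pred : B → Finset B} {m : B → B → ℕ}

theorem card_transport (e : B ≃ ℤ) {s : ℤ → ℕ}
    (hI : ∀ b j, j ∈ I b ↔ e b - s (e b) ≤ e j ∧ e j ≤ e b - 1) (b b' : B) :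
    (Iv s (e b) ∩ Iv s (e b')).card = (I b ∩ I b').card := by
  rw [← Finset.card_map e.toEmbedding (s := I b ∩ I b')]
  congr 1
  ext x
  rw [Finset.mem_inter, mem_Iv, mem_Iv, Finset.mem_map]
  constructor
  · rintro ⟨h1, h2⟩
    refine ⟨e.symm x, ?_, by simp⟩
    rw [Finset.mem_inter, hI, hI, Equiv.apply_symm_apply]
    exact ⟨h1, h2⟩
  · rintro ⟨y, hy, rfl⟩
    rw [Finset.mem_inter, hI, hI] at hy
    exact hy

theorem word_of_equiv (e : B ≃ ℤ) {s : ℤ → ℕ} (h1 : ∀ l, 1 ≤ s l)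
    (hI : ∀ b j, j ∈ I b ↔ e b - s (e b) ≤ e j ∧ e j ≤ e b - 1)
    (hpos : ∀ b b', b ≠ b' → (I b ∩ I b').card ≤
      (if b' ∈ I b then 1 else 0) + (if b ∈ I b' then 1 else 0)) : Word s := by
  refine Word.of_card' h1 fun l j hlj => ?_
  obtain ⟨b, rfl⟩ := e.surjective l
  obtain ⟨b', rfl⟩ := e.surjective j
  have h := hpos b b' (fun h => hlj (by rw [h]))
  rw [card_transport e hI]
  have e1 : (b' ∈ I b) ↔ (e b' ∈ Iv s (e b)) := by rw [hI, mem_Iv]
  have e2 : (b ∈ I b') ↔ (e b ∈ Iv s (e b')) := by rw [hI, mem_Iv]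
  simpa only [e1, e2] using h

theorem mult_of_equiv (e : B ≃ ℤ) {s : ℤ → ℕ}
    (hI : ∀ b j, j ∈ I b ↔ e b - s (e b) ≤ e j ∧ e j ≤ e b - 1)
    (hfirst : ∀ b i, m b i = (if b = i then 1 else 0) + ∑ j ∈ I b, m j i)
    (hsupp : ∀ b i, 0 < m b i → e i ≤ e b) :
    Mult s (fun l k => m (e.symm l) (e.symm k)) := by
  refine ⟨fun l k hlk => ?_, fun l k => ?_⟩
  · by_contra hne
    have := hsupp _ _ (Nat.pos_of_ne_zero hne)
    simp only [Equiv.apply_symm_apply] at this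
    omega
  · show m (e.symm l) (e.symm k) = _
    rw [hfirst]
    congr 1
    · simp
    · have : Iv s l = (I (e.symm l)).map e.toEmbedding := by
        ext x
        rw [mem_Iv, Finset.mem_map]
        constructor
        · intro h
          refine ⟨e.symm x, ?_, by simp⟩
          rw [hI]; simpa using h
        · rintro ⟨y, hy, rfl⟩
          rw [hI] at hy; simpa using hy
      rw [this, Finset.sum_map]
      simp

/-- **The order theorem** (G1 of the endgame), pure combinatorics. -/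
theorem order_theorem [Nonempty B] (T : Equiv.Perm B)
    (hT : ∀ b j, j ∈ I b ↔ T j ∈ I (T b))
    (hne : ∀ b, (I b).Nonempty)
    (hpos : ∀ b b', b ≠ b' → (I b ∩ I b').card ≤
      (if b' ∈ I b then 1 else 0) + (if b ∈ I b' then 1 else 0))
    (hpred : ∀ i k, k ∈ pred i ↔ i ∈ I k) (hm : MultEq pred m)
    (hmin : ∀ b, ∀ r : B → ℕ, (∀ i, r i ≤ m b i) → (∀ i, r i = ∑ k ∈ pred i, r k) → ∀ i, r i = 0)
    (hcom : ∀ b b', ∃ N : ℕ, ∀ k, N ≤ k → 0 < m b ((T ^ k) b'))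
    (horb : ∃ S : Finset B, ∀ b, ∃ s ∈ S, ∃ k : ℤ, (T ^ k) s = b) :
    ∃ (e : B ≃ ℤ) (n : ℕ) (s : ℤ → ℕ), 1 ≤ n ∧ (∀ b, e (T b) = e b - n) ∧
      (∀ l, s (l + n) = s l) ∧
      (∀ b j, j ∈ I b ↔ e b - s (e b) ≤ e j ∧ e j ≤ e b - 1) ∧
      (∀ b i, 0 < m b i ↔ e i ≤ e b) ∧ Word s ∧ Mult s (fun l k => m (e.symm l) (e.symm k)) ∧
      (∀ τ : Equiv.Perm B, (∀ b j, j ∈ I b ↔ τ j ∈ I (τ b)) →
        ∃ c : ℤ, (∀ b, e (τ b) = e b + c) ∧ (∀ l, s (l + c) = s l)) := by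
  have hpi := mult_pos_iff hpred hm hmin
  obtain ⟨e, n, s, h1, h2, h3, h4, h5, h6, h7⟩ := exists_equiv_int T hT hne hpos
    (fun b j hj => acyclic hpred hm hj)
    (fun b b' => by
      obtain ⟨N, hN⟩ := hcom b b'
      exact ⟨N, fun k hk => (hpi _ _).1 (hN k hk)⟩) horb
  refine ⟨e, n, s, h1, h2, h4, h5, fun b i => (hpi b i).trans (h6 b i),
    word_of_equiv e h3 h5 hpos, mult_of_equiv e h5 (mult_first hpred hm hmin) (fun b i h =>
      ((hpi b i).trans (h6 b i)).1 h), h7⟩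

end

end Vale.Agent.P267.H781
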