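import Mathlib

/-!
# Total order on the basis classes (block G, line X): pure combinatorics

`B` is a set of classes, `I b` the finite set with `c_b = b - ∑_{j ∈ I b} j`, `m b i` the
multiplicity of the curve `C_i` in the divisor `D_b`.
-/

namespace Vale.Agent.P267.H781

open Relation

section Paths

variable {B : Type*} (I : B → Finset B)

/-- `Edge I b j`: `j` belongs to `I b`. -/
def Edge (b j : B) : Prop := j ∈ I b

/-- `Desc I b i`: `i` is a descendant of `b` (inward). -/
def Desc : B → B → Prop := ReflTransGen (Edge I)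

/-- paths with `p` edges -/
def Pth : ℕ → B → B → Prop
  | 0, b, i => b = i
  | p + 1, b, i => ∃ k, Pth p b k ∧ i ∈ I k

variable {I}

theorem Desc.refl (b : B) : Desc I b b := ReflTransGen.refl

theorem Desc.trans {a b c : B} (h : Desc I a b) (h' : Desc I b c) : Desc I a c :=
  ReflTransGen.trans h h'

theorem Desc.of_mem {b j : B} (h : j ∈ I b) : Desc I b j := ReflTransGen.single h

theorem Pth.desc : ∀ {p : ℕ} {b i : B}, Pth I p b i → Desc I b i
  | 0, b, i, h => by
      have : b = i := h
      subst this; exact Desc.refl _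
  | p + 1, b, i, ⟨k, hk, hi⟩ => (Pth.desc hk).trans (Desc.of_mem hi)

theorem Desc.exists_pth {b i : B} (h : Desc I b i) : ∃ p, Pth I p b i := by
  induction h with
  | refl => exact ⟨0, rfl⟩
  | tail _ hbc ih =>
    obtain ⟨p, hp⟩ := ih
    exact ⟨p + 1, _, hp, hbc⟩

/-- **(A3)** Two classes with a common descendant are comparable. -/
theorem comparable_of_pth [DecidableEq B]
    (hpos : ∀ b b', b ≠ b' → (I b ∩ I b').card ≤
      (if b' ∈ I b then 1 else 0) + (if b ∈ I b' then 1 else 0)) :
    ∀ (N p q : ℕ) (b b' i : B), p + q ≤ N → Pth I p b i → Pth I q b' i →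
      Desc I b b' ∨ Desc I b' b := by
  intro N
  induction N with
  | zero =>
    intro p q b b' i hN hp hq
    obtain rfl : p = 0 := by omega
    have : b = i := hp
    subst this
    exact Or.inr hq.desc
  | succ N ih =>
    intro p q b b' i hN hp hq
    cases p with
    | zero =>
      have : b = i := hp
      subst this
      exact Or.inr hq.desc
    | succ p =>
      cases q with
      | zero =>
        have : b' = i := hq
        subst this
        exact Or.inl hp.desc
      | succ q =>
        obtain ⟨k, hk, hik⟩ := hp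
        obtain ⟨k', hk', hik'⟩ := hq
        by_cases hkk : k = k'
        · subst hkk
          exact ih p q b b' k (by omega) hk hk'
        · have h1 : 1 ≤ (I k ∩ I k').card :=
            Finset.card_pos.mpr ⟨i, Finset.mem_inter.mpr ⟨hik, hik'⟩⟩
          have h2 := hpos k k' hkk
          by_cases h3 : k' ∈ I k
          · exact ih (p + 1) q b b' k' (by omega) ⟨k, hk, h3⟩ hk'
          · by_cases h4 : k ∈ I k'
            · exact ih p (q + 1) b b' k (by omega) hk ⟨k', hk', h4⟩
            · simp only [if_neg h3, if_neg h4] at h2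
              omega

theorem comparable [DecidableEq B]
    (hpos : ∀ b b', b ≠ b' → (I b ∩ I b').card ≤
      (if b' ∈ I b then 1 else 0) + (if b ∈ I b' then 1 else 0))
    {b b' i : B} (h : Desc I b i) (h' : Desc I b' i) : Desc I b b' ∨ Desc I b' b := by
  obtain ⟨p, hp⟩ := h.exists_pth
  obtain ⟨q, hq⟩ := h'.exists_pth
  exact comparable_of_pth hpos (p + q) p q b b' i le_rfl hp hq

end Paths

section Mult

variable {B : Type*} [DecidableEq B] {I pred : B → Finset B}

/-- the multiplicity equation: the divisor `D_b` has class `b` -/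
def MultEq (pred : B → Finset B) (m : B → B → ℕ) : Prop :=
  ∀ b i, m b i = (if b = i then 1 else 0) + ∑ k ∈ pred i, m b k

variable {m : B → B → ℕ}

theorem mult_mono_edge (hpred : ∀ i k, k ∈ pred i ↔ i ∈ I k) (hm : MultEq pred m)
    {b k i : B} (h : i ∈ I k) : m b k ≤ m b i := by
  rw [hm b i]
  have := Finset.single_le_sum (f := fun k => m b k) (fun k _ => Nat.zero_le _)
    ((hpred i k).2 h)
  omega

theorem mult_mono (hpred : ∀ i k, k ∈ pred i ↔ i ∈ I k) (hm : MultEq pred m)
    {b k i : B} (h : Desc I k i) : m b k ≤ m b i := by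
  induction h with
  | refl => exact le_rfl
  | tail _ hbc ih => exact ih.trans (mult_mono_edge hpred hm hbc)

theorem one_le_mult_self (hm : MultEq pred m) (b : B) : 1 ≤ m b b := by
  rw [hm b b]; simp

theorem mult_pos_of_desc (hpred : ∀ i k, k ∈ pred i ↔ i ∈ I k) (hm : MultEq pred m)
    {b i : B} (h : Desc I b i) : 0 < m b i :=
  lt_of_lt_of_le (one_le_mult_self hm b) (mult_mono hpred hm h)

/-- **(A1)** no descendant cycles -/
theorem acyclic (hpred : ∀ i k, k ∈ pred i ↔ i ∈ I k) (hm : MultEq pred m)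
    {b j : B} (hj : j ∈ I b) : ¬ Desc I j b := by
  intro h
  have h1 : TransGen (Edge I) b b := TransGen.head' hj h
  obtain ⟨k, hk, hkb⟩ := TransGen.tail'_iff.1 h1
  have h2 : m b b ≤ m b k := mult_mono hpred hm hk
  have h3 := hm b b
  have h4 := Finset.single_le_sum (f := fun k => m b k) (fun k _ => Nat.zero_le _)
    ((hpred b k).2 hkb)
  simp only [if_true] at h3 h4
  omega

/-- number of paths with fewer than `p` edges -/
def cnt (pred : B → Finset B) : ℕ → B → B → ℕ
  | 0, _, _ => 0
  | p + 1, b, i => (if b = i then 1 else 0) + ∑ k ∈ pred i, cnt pred p b k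

theorem cnt_le_succ (p : ℕ) (b i : B) : cnt pred p b i ≤ cnt pred (p + 1) b i := by
  induction p generalizing i with
  | zero => simp [cnt]
  | succ p ih =>
    rw [cnt, cnt]
    exact Nat.add_le_add_left (Finset.sum_le_sum fun k _ => ih k) _

theorem cnt_mono {p q : ℕ} (h : p ≤ q) (b i : B) : cnt pred p b i ≤ cnt pred q b i := by
  induction h with
  | refl => exact le_rfl
  | step _ ih => exact ih.trans (cnt_le_succ _ _ _)

theorem cnt_le (hm : MultEq pred m) (p : ℕ) (b i : B) : cnt pred p b i ≤ m b i := by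
  induction p generalizing i with
  | zero => simp [cnt]
  | succ p ih =>
    rw [cnt, hm b i]
    exact Nat.add_le_add_left (Finset.sum_le_sum fun k _ => ih k) _

theorem cnt_pos_desc (hpred : ∀ i k, k ∈ pred i ↔ i ∈ I k) {p : ℕ} {b i : B}
    (h : 0 < cnt pred p b i) : Desc I b i := by
  induction p generalizing i with
  | zero => simp [cnt] at h
  | succ p ih =>
    rw [cnt] at h
    by_cases hb : b = i
    · subst hb; exact Desc.refl _
    · rw [if_neg hb, zero_add] at h
      obtain ⟨k, hk, hpos⟩ := Finset.exists_ne_zero_of_sum_ne_zero h.ne'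
      exact (ih (Nat.pos_of_ne_zero hpos)).trans (Desc.of_mem ((hpred i k).1 hk))

theorem cnt_first (hpred : ∀ i k, k ∈ pred i ↔ i ∈ I k) (p : ℕ) (b i : B) :
    cnt pred (p + 1) b i = (if b = i then 1 else 0) + ∑ j ∈ I b, cnt pred p j i := by
  induction p generalizing i with
  | zero => simp [cnt]
  | succ p ih =>
    rw [cnt]
    congr 1
    have h1 : ∑ k ∈ pred i, cnt pred (p + 1) b k
        = ∑ k ∈ pred i, ((if b = k then 1 else 0) + ∑ j ∈ I b, cnt pred p j k) :=
      Finset.sum_congr rfl fun k _ => ih k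
    rw [h1, Finset.sum_add_distrib, Finset.sum_comm]
    have h2 : ∀ j ∈ I b, cnt pred (p + 1) j i
        = (if j = i then 1 else 0) + ∑ k ∈ pred i, cnt pred p j k := fun j _ => by rw [cnt]
    rw [Finset.sum_congr rfl h2, Finset.sum_add_distrib]
    congr 1
    rw [Finset.sum_ite_eq, Finset.sum_ite_eq']
    simp [hpred]

theorem exists_stab (hm : MultEq pred m) (b i : B) :
    ∃ N, ∀ p, N ≤ p → cnt pred p b i = cnt pred N b i := by
  have hbdd : BddAbove (Set.range fun p => cnt pred p b i) := ⟨m b i, by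
    rintro _ ⟨p, rfl⟩; exact cnt_le hm p b i⟩
  obtain ⟨N, hN⟩ := Nat.sSup_mem (Set.range_nonempty _) hbdd
  refine ⟨N, fun p hp => le_antisymm ?_ (cnt_mono hp b i)⟩
  have h1 : cnt pred p b i ≤ sSup (Set.range fun p => cnt pred p b i) := le_csSup hbdd ⟨p, rfl⟩
  have h2 : cnt pred N b i = sSup (Set.range fun p => cnt pred p b i) := hN
  omega

/-- common stabilisation index on a finite set -/
theorem exists_stab_finset (hm : MultEq pred m) (s : Finset (B × B)) :
    ∃ N, ∀ x ∈ s, ∀ p, N ≤ p → cnt pred p x.1 x.2 = cnt pred N x.1 x.2 := by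
  choose N hN using fun x : B × B => exists_stab hm x.1 x.2
  refine ⟨s.sup N, fun x hx p hp => ?_⟩
  have hle : N x ≤ s.sup N := Finset.le_sup hx
  rw [hN x p (hle.trans hp), hN x _ hle]

/-- **(A2)** If there is no nonzero effective divisor `r ≤ D_b` of class `0`, then the
multiplicities are the numbers of paths. -/
theorem mult_eq_cnt (hm : MultEq pred m)
    (hmin : ∀ b, ∀ r : B → ℕ, (∀ i, r i ≤ m b i) → (∀ i, r i = ∑ k ∈ pred i, r k) → ∀ i, r i = 0)
    (b i : B) : ∃ N, ∀ p, N ≤ p → m b i = cnt pred p b i := by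
  classical
  choose N hN using fun i => exists_stab hm b i
  set P : B → ℕ := fun i => cnt pred (N i) b i with hP
  have hPle : ∀ i, P i ≤ m b i := fun i => cnt_le hm _ b i
  have hPeq : ∀ i, P i = (if b = i then 1 else 0) + ∑ k ∈ pred i, P k := by
    intro i
    set M := max (N i) ((pred i).sup N) with hM
    have h1 : cnt pred (M + 1) b i = P i := hN i _ (by omega)
    rw [cnt] at h1
    rw [← h1]
    congr 1
    refine Finset.sum_congr rfl fun k hk => ?_
    have hle : N k ≤ (pred i).sup N := Finset.le_sup hk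
    exact hN k M (by omega)
  have hr := hmin b (fun i => m b i - P i) (fun i => Nat.sub_le _ _) (by
    intro i
    have h1 := hm b i
    have h2 := hPeq i
    have h3 : ∑ k ∈ pred i, (m b k - P k) + ∑ k ∈ pred i, P k = ∑ k ∈ pred i, m b k := by
      rw [← Finset.sum_add_distrib]
      exact Finset.sum_congr rfl fun k _ => Nat.sub_add_cancel (hPle k)
    have h4 := hPle i
    show m b i - P i = ∑ k ∈ pred i, (m b k - P k)
    omega) i
  refine ⟨N i, fun p hp => ?_⟩
  rw [hN i p hp]
  have h1 : cnt pred (N i) b i ≤ m b i := hPle i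
  have h2 : m b i - cnt pred (N i) b i = 0 := hr
  omega

/-- **(A2)** `m b i > 0` iff `i` is a descendant of `b` -/
theorem mult_pos_iff (hpred : ∀ i k, k ∈ pred i ↔ i ∈ I k) (hm : MultEq pred m)
    (hmin : ∀ b, ∀ r : B → ℕ, (∀ i, r i ≤ m b i) → (∀ i, r i = ∑ k ∈ pred i, r k) → ∀ i, r i = 0)
    (b i : B) : 0 < m b i ↔ Desc I b i := by
  constructor
  · intro h
    obtain ⟨N, hN⟩ := mult_eq_cnt hm hmin b i
    rw [hN N le_rfl] at h
    exact cnt_pos_desc hpred h
  · exact mult_pos_of_desc hpred hm

/-- **(A2)** `D_b = C_b + ∑_{j ∈ I b} D_j` -/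
theorem mult_first (hpred : ∀ i k, k ∈ pred i ↔ i ∈ I k) (hm : MultEq pred m)
    (hmin : ∀ b, ∀ r : B → ℕ, (∀ i, r i ≤ m b i) → (∀ i, r i = ∑ k ∈ pred i, r k) → ∀ i, r i = 0)
    (b i : B) : m b i = (if b = i then 1 else 0) + ∑ j ∈ I b, m j i := by
  classical
  choose N hN using fun j => mult_eq_cnt hm hmin j i
  set M := max (N b) ((I b).sup N) with hM
  rw [hN b (M + 1) (by omega), cnt_first hpred]
  congr 1
  refine Finset.sum_congr rfl fun j hj => ?_
  have hle : N j ≤ (I b).sup N := Finset.le_sup hj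
  exact (hN j M (by omega)).symm

end Mult

section Order

variable {B : Type*} {I : B → Finset B}

/-- The linear order on the classes: `a ≤ b` iff `a` is a descendant of `b` (outward = larger). -/
@[reducible] noncomputable def linOrd (hacyc : ∀ b j, j ∈ I b → ¬ Desc I j b)
    (htot : ∀ b b', Desc I b b' ∨ Desc I b' b) : LinearOrder B where
  le a b := Desc I b a
  le_refl a := Desc.refl a
  le_trans _ _ _ h h' := h'.trans h
  le_antisymm a b h h' := by
    by_contra hne
    rcases ReflTransGen.cases_head h with h1 | ⟨c, hbc, hca⟩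
    · exact hne h1.symm
    · exact hacyc b c hbc (Desc.trans hca h')
  le_total a b := (htot b a)
  toDecidableLE := Classical.decRel _

theorem desc_map (T : Equiv.Perm B) (hT : ∀ b j, j ∈ I b → T j ∈ I (T b)) {a b : B}
    (h : Desc I b a) : Desc I (T b) (T a) := by
  induction h with
  | refl => exact Desc.refl _
  | tail _ hbc ih => exact ih.trans (Desc.of_mem (hT _ _ hbc))

/-- an order automorphism of `ℤ` is a translation -/
theorem int_orderIso_translation (φ : ℤ ≃o ℤ) (z : ℤ) : φ z = z + φ 0 := by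
  have hs : ∀ z, φ (z + 1) = φ z + 1 := fun z => by
    have := φ.map_succ z
    simpa [Int.succ] using this
  induction z using Int.induction_on with
  | zero => simp
  | succ k ih => rw [hs, ih]; ring
  | pred k ih =>
    have := hs (-(k : ℤ) - 1)
    rw [sub_add_cancel, ih] at this
    linarith

/-- **(A4)** The set of basis classes is ordered like `ℤ` (outward increasing), the inward shift
`T` is a translation, and every `I b` is an interval directly below `b`. -/
theorem exists_equiv_int [DecidableEq B] [Nonempty B] (T : Equiv.Perm B)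
    (hT : ∀ b j, j ∈ I b ↔ T j ∈ I (T b))
    (hne : ∀ b, (I b).Nonempty)
    (hpos : ∀ b b', b ≠ b' → (I b ∩ I b').card ≤
      (if b' ∈ I b then 1 else 0) + (if b ∈ I b' then 1 else 0))
    (hacyc : ∀ b j, j ∈ I b → ¬ Desc I j b)
    (hcom : ∀ b b', ∃ N : ℕ, ∀ k, N ≤ k → Desc I b ((T ^ k) b'))
    (horb : ∃ S : Finset B, ∀ b, ∃ s ∈ S, ∃ k : ℤ, (T ^ k) s = b) :
    ∃ (e : B ≃ ℤ) (n : ℕ) (s : ℤ → ℕ), 1 ≤ n ∧ (∀ b, e (T b) = e b - n) ∧ (∀ l, 1 ≤ s l) ∧
      (∀ l, s (l + n) = s l) ∧
      (∀ b j, j ∈ I b ↔ e b - s (e b) ≤ e j ∧ e j ≤ e b - 1) ∧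
      (∀ b i, Desc I b i ↔ e i ≤ e b) ∧
      (∀ τ : Equiv.Perm B, (∀ b j, j ∈ I b ↔ τ j ∈ I (τ b)) →
        ∃ c : ℤ, (∀ b, e (τ b) = e b + c) ∧ (∀ l, s (l + c) = s l)) := by
  have htot : ∀ b b', Desc I b b' ∨ Desc I b' b := by
    intro b b'
    obtain ⟨N, hN⟩ := hcom b b
    obtain ⟨N', hN'⟩ := hcom b' b
    exact comparable hpos (hN (max N N') (le_max_left _ _)) (hN' (max N N') (le_max_right _ _))
  letI : LinearOrder B := linOrd hacyc htot
  have hle : ∀ a b : B, a ≤ b ↔ Desc I b a := fun a b => Iff.rfl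
  -- symmetries are order preserving
  have hmono : ∀ τ : Equiv.Perm B, (∀ b j, j ∈ I b ↔ τ j ∈ I (τ b)) →
      ∀ a b : B, τ a ≤ τ b ↔ a ≤ b := by
    intro τ hτ a b
    constructor
    · intro h
      have h1 := desc_map τ.symm (I := I) (fun b j hj => by
        rw [hτ]; simpa using hj) ((hle _ _).1 h)
      simpa [hle] using h1
    · intro h
      exact desc_map τ (fun b j hj => (hτ b j).1 hj) h
  have hlt_mem : ∀ b j : B, j ∈ I b → j < b := by
    intro b j hj
    refine lt_of_le_of_ne (Desc.of_mem hj) ?_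
    rintro rfl
    exact hacyc _ _ hj (Desc.refl _)
  haveI : NoMinOrder B := ⟨fun b => ⟨(hne b).choose, hlt_mem _ _ (hne b).choose_spec⟩⟩
  -- `T` is strictly inward
  have hTm := hmono T hT
  have hTlt : ∀ b, T b < b := by
    intro b
    by_contra h
    have h0 : b ≤ T b := not_lt.1 h
    have hit : ∀ k : ℕ, b ≤ (T ^ k) b := by
      intro k
      induction k with
      | zero => simp
      | succ k ih =>
        rw [pow_succ', Equiv.Perm.mul_apply]
        exact h0.trans ((hTm _ _).2 ih)
    obtain ⟨j, hj⟩ := hne b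
    obtain ⟨N, hN⟩ := hcom j b
    have h1 : (T ^ N) b ≤ j := hN N le_rfl
    exact absurd (lt_of_le_of_lt ((hit N).trans h1) (hlt_mem b j hj)) (lt_irrefl _)
  haveI : NoMaxOrder B := ⟨fun b => ⟨T.symm b, by simpa using hTlt (T.symm b)⟩⟩
  have hzlt : ∀ (s : B) (z w : ℤ), z < w → (T ^ w) s < (T ^ z) s := by
    intro s z w hzw
    obtain ⟨d, hd⟩ := Int.eq_ofNat_of_zero_le (show 0 ≤ w - z - 1 by omega)
    obtain rfl : w = (d : ℤ) + 1 + z := by omega
    clear hd hzw
    induction d with
    | zero =>
      rw [show ((0 : ℕ) : ℤ) + 1 + z = 1 + z by push_cast; ring, zpow_add, zpow_one,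
        Equiv.Perm.mul_apply]
      exact hTlt _
    | succ d ih =>
      refine lt_trans ?_ ih
      rw [show ((d + 1 : ℕ) : ℤ) + 1 + z = 1 + ((d : ℤ) + 1 + z) by push_cast; ring, zpow_add,
        zpow_one, Equiv.Perm.mul_apply]
      exact hTlt _
  have hfin : ∀ a b : B, (Set.Icc a b).Finite := by
    intro a b
    obtain ⟨S, hS⟩ := horb
    have key : ∀ s : B, {z : ℤ | (T ^ z) s ∈ Set.Icc a b}.Finite := by
      intro s
      obtain ⟨N, hN⟩ := hcom a s
      obtain ⟨N', hN'⟩ := hcom s b
      refine (Set.finite_Icc (-(N' : ℤ)) (N : ℤ)).subset fun z hz => ?_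
      obtain ⟨h1, h2⟩ := hz
      constructor
      · by_contra hlt
        have h3 : (T ^ N') b ≤ s := hN' N' le_rfl
        have h4 : b ≤ (T ^ (-(N' : ℤ))) s := by
          have h5 : ∀ k : ℕ, ∀ x y : B, (T ^ k) x ≤ (T ^ k) y ↔ x ≤ y := by
            intro k
            induction k with
            | zero => intro x y; simp
            | succ k ih =>
              intro x y
              rw [pow_succ', Equiv.Perm.mul_apply, Equiv.Perm.mul_apply, hTm, ih]
          rw [← h5 N']
          have : (T ^ N') ((T ^ (-(N' : ℤ))) s) = s := by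
            rw [← zpow_natCast, ← Equiv.Perm.mul_apply, ← zpow_add]; simp
          rw [this]; exact h3
        have h6 := hzlt s z (-(N' : ℤ)) (not_le.1 hlt)
        exact absurd (lt_of_le_of_lt (h2.trans h4) h6) (lt_irrefl _)
      · by_contra hlt
        have h3 : (T ^ N) s ≤ a := hN N le_rfl
        have h6 := hzlt s N z (not_le.1 hlt)
        rw [zpow_natCast] at h6
        exact absurd (lt_of_lt_of_le h6 (h3.trans h1)) (lt_irrefl _)
    have : Set.Icc a b ⊆ ⋃ s ∈ S, (fun z : ℤ => (T ^ z) s) '' {z : ℤ | (T ^ z) s ∈ Set.Icc a b} := by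
      intro x hx
      obtain ⟨s, hs, k, hk⟩ := hS x
      simp only [Set.mem_iUnion]
      exact ⟨s, hs, k, by simpa [hk] using hx, hk⟩
    exact (Set.Finite.biUnion S.finite_toSet fun s _ => (key s).image _).subset this
  letI : LocallyFiniteOrder B := LocallyFiniteOrder.ofFiniteIcc hfin
  letI : SuccOrder B := LinearLocallyFiniteOrder.succOrder B
  letI : PredOrder B := LinearLocallyFiniteOrder.predOrder B
  let e : B ≃o ℤ := orderIsoIntOfLinearSuccPredArch
  have hels : ∀ a b : B, e a < e b ↔ a < b := fun a b => e.lt_iff_lt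
  -- every symmetry is a translation
  have htrans : ∀ τ : Equiv.Perm B, (∀ b j, j ∈ I b ↔ τ j ∈ I (τ b)) →
      ∃ c : ℤ, ∀ b, e (τ b) = e b + c := by
    intro τ hτ
    let τo : B ≃o B := ⟨τ, by intro a b; exact hmono τ hτ a b⟩
    let φ : ℤ ≃o ℤ := (e.symm.trans τo).trans e
    refine ⟨φ 0, fun b => ?_⟩
    have := int_orderIso_translation φ (e b)
    rw [← this]
    simp [φ, τo]
  -- the predecessor of `b` belongs to `I b`
  have hpredmem : ∀ b j : B, e j = e b - 1 → j ∈ I b := by
    intro b j hj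
    have hjb : j < b := (hels _ _).1 (by omega)
    rcases ReflTransGen.cases_head (show Desc I b j from hjb.le) with h | ⟨c, hbc, hcj⟩
    · exact absurd h hjb.ne'
    · have h1 : c < b := hlt_mem _ _ hbc
      have h2 : j ≤ c := hcj
      have h3 := (hels _ _).2 h1
      have h4 := e.le_iff_le.2 h2
      have : e c = e j := by omega
      rw [← e.injective this]; exact hbc
  -- upward closed
  have hup : ∀ b j j' : B, j ∈ I b → e j' = e j + 1 → j' < b → j' ∈ I b := by
    intro b j j' hj hj' hlt
    by_contra hnot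
    have h1 : j ∈ I j' := hpredmem _ _ (by omega)
    have h2 := hpos b j' hlt.ne'
    have h3 : b ∉ I j' := fun h => absurd (hlt_mem _ _ h) (not_lt.2 hlt.le)
    rw [if_neg hnot, if_neg h3] at h2
    have h4 : 1 ≤ (I b ∩ I j').card := Finset.card_pos.mpr ⟨j, Finset.mem_inter.mpr ⟨hj, h1⟩⟩
    omega
  -- the minimum of `I b`
  have hmin : ∀ b, ∃ t : ℕ, 1 ≤ t ∧ ∀ j, j ∈ I b ↔ e b - t ≤ e j ∧ e j ≤ e b - 1 := by
    intro b
    obtain ⟨c, hc, hcmin⟩ := Finset.exists_min_image (I b) (fun j => e j) (hne b)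
    have hcb : e c < e b := (hels _ _).2 (hlt_mem _ _ hc)
    refine ⟨(e b - e c).toNat, by omega, fun j => ?_⟩
    constructor
    · intro hj
      have h1 := hcmin j hj
      have h2 := (hels _ _).2 (hlt_mem _ _ hj)
      omega
    · rintro ⟨h1, h2⟩
      have key : ∀ d : ℕ, ∀ j, e j = e c + d → e j ≤ e b - 1 → j ∈ I b := by
        intro d
        induction d with
        | zero =>
          intro j hj _
          have : e j = e c := by simpa using hj
          rw [e.injective this]; exact hc
        | succ d ih =>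
          intro j hj hjb
          have h3 : e.symm (e c + d) ∈ I b := ih _ (by simp) (by simp; omega)
          exact hup b _ j h3 (by rw [hj]; simp; ring) ((hels _ _).1 (by omega))
      exact key (e j - e c).toNat j (by omega) h2
  choose t ht1 ht using hmin
  obtain ⟨c, hc⟩ := htrans T hT
  have hcneg : c < 0 := by
    obtain ⟨b⟩ := ‹Nonempty B›
    have := (hels _ _).2 (hTlt b)
    rw [hc] at this
    omega
  have hinv : ∀ τ : Equiv.Perm B, (∀ b j, j ∈ I b ↔ τ j ∈ I (τ b)) → ∀ c : ℤ,
      (∀ b, e (τ b) = e b + c) → ∀ l, t (e.symm (l + c)) = t (e.symm l) := by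
    intro τ hτ c hc l
    have h1 : e.symm (l + c) = τ (e.symm l) := by
      apply e.injective
      rw [hc]; simp
    rw [h1]
    set b := e.symm l
    -- compare `t (τ b)` and `t b`
    have h2 := ht (τ b)
    have h3 := ht b
    have key : ∀ x : ℤ, (e (τ b) - t (τ b) ≤ x + c ∧ x + c ≤ e (τ b) - 1) ↔
        (e b - t b ≤ x ∧ x ≤ e b - 1) := by
      intro x
      have h4 := h2 (τ (e.symm x))
      have h5 := h3 (e.symm x)
      have h8 := hc (e.symm x)
      rw [← hτ, h5, h8] at h4
      simpa using h4.symm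
    have k1 := key (e b - t b)
    have k2 := key (e b - t (τ b))
    have h6 := ht1 b
    have h7 := ht1 (τ b)
    rw [hc b] at k1 k2
    omega
  refine ⟨e.toEquiv, (-c).toNat, fun l => t (e.symm l), by omega, ?_, fun l => ht1 _, ?_, ?_, ?_,
    ?_⟩
  · intro b
    have := hc b
    simp only [RelIso.coe_fn_toEquiv]
    omega
  · intro l
    have h1 := hinv T hT c hc (l + (-c).toNat)
    have h2 : l + ((-c).toNat : ℤ) + c = l := by omega
    rw [h2] at h1
    exact h1.symm
  · intro b j
    simpa using ht b j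
  · intro b i
    rw [← hle i b]
    simp
  · intro τ hτ
    obtain ⟨c', hc'⟩ := htrans τ hτ
    exact ⟨c', hc', hinv τ hτ c' hc'⟩

end Order

end Vale.Agent.P267.H781
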